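/-
helper97 -- S0356 squad (track D), leaf PW: iterate the product lemma over `Fin k → V`.

Induction on `k` with `MeasurableEquiv.piFinSuccAbove (fun _ => V) 0` (linear, measure
preserving, maps `Set.pi univ (fun _ => T)` to `T ×ˢ Set.pi univ (fun _ => T)` and sweeps to
sweeps).  Here the product lemma `sweepLB_prod` (leaf PR) enters as the explicit hypothesis `hprod`
(its instance for `V₁ = V`, `V₂ = Fin k → V`, `K₁ = T`, `K₂ = T^k`), so that this file depends on
the definitions only; `Powers.lean` plugs in the landed leaf PR.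
-/
import Crest.Agent.Helper28.S0356.Defs

set_option autoImplicit false
open MeasureTheory
open scoped ENNReal

namespace Crest.Agent.Helper97.S0356

open Crest.Agent.Helper28.S0355 (sweep)
open Crest.Agent.Helper28.S0356

/-- A set is contained in each of its sweeps (`t = 0`). -/
theorem subset_sweep {V : Type*} [AddCommGroup V] [Module ℝ V] (K : Set V) (u : V) :
    K ⊆ sweep K u := by
  intro x hx
  exact ⟨0, ⟨le_refl _, zero_le_one⟩, by simpa using hx⟩

/-- Sweeps commute with preimages under (ℝ-)linear maps. -/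
theorem sweep_preimage_linear {V W : Type*} [AddCommGroup V] [Module ℝ V] [AddCommGroup W]
    [Module ℝ W] (e : V → W) (he : ∀ (x u : V) (t : ℝ), e (x - t • u) = e x - t • e u)
    (A : Set W) (u : V) :
    sweep (e ⁻¹' A) u = e ⁻¹' sweep A (e u) := by
  ext x
  simp only [sweep, Set.mem_ofPred_eq, Set.mem_preimage]
  constructor
  · rintro ⟨t, ht, h⟩
    exact ⟨t, ht, by rw [← he]; exact h⟩
  · rintro ⟨t, ht, h⟩
    exact ⟨t, ht, by rw [he]; exact h⟩

theorem piFinSucc_sub_smul {V : Type*} [AddCommGroup V] [Module ℝ V] [MeasurableSpace V]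
    (k : ℕ) (x u : Fin (k + 1) → V) (t : ℝ) :
    MeasurableEquiv.piFinSuccAbove (fun _ : Fin (k + 1) => V) 0 (x - t • u) =
      MeasurableEquiv.piFinSuccAbove (fun _ : Fin (k + 1) => V) 0 x -
        t • MeasurableEquiv.piFinSuccAbove (fun _ : Fin (k + 1) => V) 0 u := by
  simp only [MeasurableEquiv.piFinSuccAbove_apply, Fin.insertNthEquiv_zero,
    Fin.consEquiv_symm_apply]
  ext <;> simp [Fin.tail]

theorem pi_succ_eq_preimage {V : Type*} [MeasurableSpace V] (k : ℕ) (T : Set V) :
    Set.pi Set.univ (fun _ : Fin (k + 1) => T) =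
      MeasurableEquiv.piFinSuccAbove (fun _ : Fin (k + 1) => V) 0 ⁻¹'
        (T ×ˢ Set.pi Set.univ (fun _ : Fin k => T)) := by
  ext x
  simp only [Set.mem_pi, Set.mem_univ, true_implies, Set.mem_preimage, Set.mem_prod,
    MeasurableEquiv.piFinSuccAbove_apply, Fin.insertNthEquiv_zero, Fin.consEquiv_symm_apply,
    Fin.forall_fin_succ, Fin.tail]

theorem volume_pi_const {V : Type*} [MeasureSpace V] [SigmaFinite (volume : Measure V)]
    (k : ℕ) (T : Set V) :
    volume (Set.pi Set.univ (fun _ : Fin k => T)) = volume T ^ k := by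
  rw [volume_pi_pi]
  simp

theorem sweepLB_pi_of {V : Type*}
    [NormedAddCommGroup V] [NormedSpace ℝ V] [MeasureSpace V]
    [SigmaFinite (volume : Measure V)]
    (T : Set V) (H : V → ℝ) (nn : ∀ u, 0 ≤ H u)
    (hprod : ∀ (k : ℕ) (H₂ : (Fin k → V) → ℝ),
      SweepLB (Set.pi Set.univ (fun _ : Fin k => T)) H₂ → (∀ u, 0 ≤ H₂ u) →
      SweepLB (T ×ˢ Set.pi Set.univ (fun _ : Fin k => T))
        (fun u : V × (Fin k → V) =>
          (volume (Set.pi Set.univ (fun _ : Fin k => T))).toReal * H u.1 +
            (volume T).toReal * H₂ u.2))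
    (k : ℕ) :
    SweepLB (Set.pi Set.univ (fun _ : Fin k => T))
      (fun u : Fin k → V => (volume T).toReal ^ (k - 1) * ∑ j, H (u j)) := by
  induction k with
  | zero =>
    intro u
    simp only [Finset.univ_eq_empty, Finset.sum_empty, mul_zero, ENNReal.ofReal_zero, add_zero]
    exact measure_mono (subset_sweep _ u)
  | succ k ih =>
    intro u
    set e := MeasurableEquiv.piFinSuccAbove (fun _ : Fin (k + 1) => V) 0 with he
    have hmp : MeasurePreserving e volume volume :=
      volume_preserving_piFinSuccAbove (fun _ : Fin (k + 1) => V) 0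
    have hnn2 : ∀ w : Fin k → V, 0 ≤ (volume T).toReal ^ (k - 1) * ∑ j, H (w j) := fun w =>
      mul_nonneg (pow_nonneg ENNReal.toReal_nonneg _) (Finset.sum_nonneg fun j _ => nn _)
    have hprod := hprod k
      (fun w : Fin k → V => (volume T).toReal ^ (k - 1) * ∑ j, H (w j)) ih hnn2 (e u)
    have hK : volume (Set.pi Set.univ (fun _ : Fin (k + 1) => T)) =
        volume (T ×ˢ Set.pi Set.univ (fun _ : Fin k => T)) := by
      rw [pi_succ_eq_preimage, hmp.measure_preimage_equiv]
    have hS : volume (sweep (Set.pi Set.univ (fun _ : Fin (k + 1) => T)) u) =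
        volume (sweep (T ×ˢ Set.pi Set.univ (fun _ : Fin k => T)) (e u)) := by
      rw [pi_succ_eq_preimage, sweep_preimage_linear (⇑e) (piFinSucc_sub_smul k),
        hmp.measure_preimage_equiv]
    have hval : (volume (Set.pi Set.univ (fun _ : Fin k => T))).toReal * H (e u).1 +
        (volume T).toReal * ((volume T).toReal ^ (k - 1) * ∑ j, H ((e u).2 j)) =
        (volume T).toReal ^ (k + 1 - 1) * ∑ j, H (u j) := by
      have h1 : (e u).1 = u 0 := by
        simp [he, MeasurableEquiv.piFinSuccAbove_apply]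
      have h2 : ∀ j, (e u).2 j = u j.succ := by
        intro j
        simp [he, MeasurableEquiv.piFinSuccAbove_apply, Fin.tail]
      simp only [h1, h2]
      rw [volume_pi_const, ENNReal.toReal_pow, Fin.sum_univ_succ, Nat.add_sub_cancel]
      rcases k with _ | m
      · simp
      · rw [Nat.add_sub_cancel, pow_succ]
        ring
    rw [hK, hS]
    show volume _ + ENNReal.ofReal ((volume T).toReal ^ (k + 1 - 1) * ∑ j, H (u j)) ≤ _
    rw [← hval]
    exact hprod

end Crest.Agent.Helper97.S0356
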