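/-
helper97 -- S0356 squad (track D), leaf PW: iterate the product lemma over `Fin k → V`
(exact Blueprint name and signature).  The induction is `sweepLB_pi_of` (PowersOf.lean); the
product lemma `sweepLB_prod` is leaf PR (helper23, Crest/Agent/Helper23/S0356/PR.lean).
-/
import Crest.Agent.Helper97.S0356.PowersOf
import Crest.Agent.Helper23.S0356.PR

set_option autoImplicit false
open MeasureTheory
open scoped ENNReal

namespace Crest.Agent.Helper97.S0356

open Crest.Agent.Helper28.S0355 (sweep)
open Crest.Agent.Helper28.S0356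
open Crest.Agent.Helper23.S0356 (sweepLB_prod)

theorem sweepLB_pi {V : Type*}
    [NormedAddCommGroup V] [NormedSpace ℝ V] [MeasureSpace V] [BorelSpace V]
    [SecondCountableTopology V] [SigmaFinite (volume : Measure V)]
    [(volume : Measure V).IsAddLeftInvariant] [IsFiniteMeasureOnCompacts (volume : Measure V)]
    (T : Set V) (H : V → ℝ) (hT : IsCompact T) (hc : Convex ℝ T) (h : SweepLB T H)
    (hom : ∀ s : ℝ, 0 ≤ s → ∀ u, H (s • u) = s * H u) (nn : ∀ u, 0 ≤ H u) (k : ℕ) :
    SweepLB (Set.pi Set.univ (fun _ : Fin k => T))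
      (fun u : Fin k → V => (volume T).toReal ^ (k - 1) * ∑ j, H (u j)) :=
  sweepLB_pi_of T H nn
    (fun k H₂ h₂ nn₂ => sweepLB_prod T (Set.pi Set.univ (fun _ : Fin k => T)) H H₂ hT
      (isCompact_univ_pi fun _ => hT) (convex_pi fun _ _ => hc) h h₂ hom nn nn₂) k

end Crest.Agent.Helper97.S0356
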